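import Mathlib

namespace Vale.Agent.Kap

/-- A group is word-hyperbolic if it has a finite generating set `S` and there is `δ` such that in
every geodesic triangle of the Cayley graph each side lies in the closed `δ`-neighbourhood of the
union of the other two sides. -/
def IsWordHyperbolic (G : Type) [Group G] : Prop :=
  ∃ S : Finset G, Subgroup.closure (S : Set G) = ⊤ ∧ ∃ δ : ℕ,
    ∀ (a b c : G) (p : (SimpleGraph.mulCayley (S : Set G)).Walk a b)
      (q : (SimpleGraph.mulCayley (S : Set G)).Walk b c)
      (r : (SimpleGraph.mulCayley (S : Set G)).Walk c a),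
      p.length = (SimpleGraph.mulCayley (S : Set G)).dist a b →
      q.length = (SimpleGraph.mulCayley (S : Set G)).dist b c →
      r.length = (SimpleGraph.mulCayley (S : Set G)).dist c a →
      (∀ x ∈ p.support, ∃ y, (y ∈ q.support ∨ y ∈ r.support) ∧
        (SimpleGraph.mulCayley (S : Set G)).dist x y ≤ δ) ∧
      (∀ x ∈ q.support, ∃ y, (y ∈ r.support ∨ y ∈ p.support) ∧
        (SimpleGraph.mulCayley (S : Set G)).dist x y ≤ δ) ∧
      (∀ x ∈ r.support, ∃ y, (y ∈ p.support ∨ y ∈ q.support) ∧
        (SimpleGraph.mulCayley (S : Set G)).dist x y ≤ δ)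

end Vale.Agent.Kap
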