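import Vale.Agent.Kap.Defs
import Vale.Agent.Kap.Hyp
import Vale.Agent.P186.Slim

namespace Vale.Agent.Kap

open SimpleGraph Vale.Agent.P186

variable {G S : Type} [Group G] (gen : S → G)

/-- Pairing of an edge chain with a function on pairs of vertices. -/
noncomputable def thinPair (χ : G → G → ZMod 2) : ((G × S) →₀ ℤ) →ₗ[ℤ] ZMod 2 :=
  Finsupp.linearCombination ℤ fun x => χ x.1 (x.1 * gen x.2)

theorem thin_walk {a b : G} (v : G) (w : (mulCayley (Set.range gen)).Walk a b) :
    ∃ L : List (S × Bool), L.length = w.length ∧ a * FreeGroup.lift gen (FreeGroup.mk L) = b ∧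
      ∀ χ : G → G → ZMod 2, (∀ x y, χ x y = χ y x) →
        par χ w = thinPair gen (fun x y => χ (v * x) (v * y)) (pc gen (v⁻¹ * a) L) := by
  induction w with
  | nil => exact ⟨[], rfl, by simp, fun _ _ => by simp [par_nil, pc]⟩
  | @cons a a' b h p ih =>
    obtain ⟨L, h1, h2, h3⟩ := ih
    rw [mulCayley_adj'] at h
    obtain ⟨-, _, ⟨s, rfl⟩, h4 | h4⟩ := h
    · subst h4
      refine ⟨(s, true) :: L, by simp [h1], by simpa [mul_assoc] using h2, fun χ hχ => ?_⟩
      rw [par_cons, pc, map_add, h3 χ hχ, mul_assoc]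
      simp [thinPair, mul_assoc]
    · subst h4
      refine ⟨(s, false) :: L, by simp [h1], by simpa [mul_assoc] using h2, fun χ hχ => ?_⟩
      rw [par_cons, pc, map_add, h3 χ hχ, hχ]
      simp [thinPair, mul_assoc]

theorem thin_lip {V : Type} {X : SimpleGraph V} (hc : X.Connected) {h : V → ℕ}
    (hh : ∀ a b, X.Adj a b → h a ≤ h b + 1) (a b : V) : h a ≤ h b + X.dist a b := by
  obtain ⟨w, hw⟩ := hc.exists_walk_length_eq_dist a b
  rw [← hw]
  clear hw
  induction w with
  | nil => simp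
  | cons h1 p ih =>
    have := hh _ _ h1
    rw [Walk.length_cons]
    omega

theorem thin_connected (hgen : Subgroup.closure (Set.range gen) = ⊤) :
    (mulCayley (Set.range gen)).Connected := by
  have step : ∀ (g : G) (s : S), (mulCayley (Set.range gen)).Reachable g (g * gen s) := by
    intro g s
    by_cases h : g = g * gen s
    · rw [← h]
    · exact Adj.reachable ((mulCayley_adj' _ _ _).2 ⟨h, gen s, ⟨s, rfl⟩, Or.inl rfl⟩)
  have key : ∀ x ∈ Subgroup.closure (Set.range gen), ∀ g : G,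
      (mulCayley (Set.range gen)).Reachable g (g * x) := by
    intro x hx
    induction hx using Subgroup.closure_induction with
    | mem x hx =>
      obtain ⟨s, rfl⟩ := hx
      exact fun g => step g s
    | one => intro g; rw [mul_one]
    | mul x y _ _ h1 h2 => intro g; rw [← mul_assoc]; exact (h1 g).trans (h2 _)
    | inv x _ h1 => intro g; simpa using (h1 (g * x⁻¹)).symm
  refine ⟨fun a b => ?_⟩
  simpa using key (a⁻¹ * b) (hgen ▸ Subgroup.mem_top _) a

theorem thin_box (h f : G → ℕ) (τ t D : ℕ) (g : G) (z : (G × S) →₀ ℤ) (hz : bd gen z = 0)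
    (hB : ∀ x ∈ z.support, ∀ a, a = x.1 ∨ a = x.1 * gen x.2 →
      (h a ≤ h g + D ∧ h g ≤ h a + D) ∧ (f a ≤ f g + D ∧ f g ≤ f a + D))
    (hne : thinPair gen (chi h f τ t) z ≠ 0) :
    (τ, t) ∈ Finset.Icc (h g - D) (h g + D) ×ˢ Finset.Icc (f g - D) (f g + D) := by
  have tele : ∀ φ : G → ZMod 2, (∀ a b, ((h a ≤ h g + D ∧ h g ≤ h a + D) ∧
      (f a ≤ f g + D ∧ f g ≤ f a + D)) → ((h b ≤ h g + D ∧ h g ≤ h b + D) ∧
      (f b ≤ f g + D ∧ f g ≤ f b + D)) → chi h f τ t a b = φ a + φ b) → False := by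
    intro φ hφ
    apply hne
    have h1 := congrArg (Finsupp.linearCombination ℤ φ) hz
    rw [map_zero, bd, Finsupp.sum, map_sum] at h1
    rw [← h1, thinPair, Finsupp.linearCombination_apply, Finsupp.sum]
    refine Finset.sum_congr rfl fun x hx => ?_
    rw [hφ _ _ (hB x hx _ (Or.inl rfl)) (hB x hx _ (Or.inr rfl)), map_sub,
      Finsupp.linearCombination_single, Finsupp.linearCombination_single, CharTwo.sub_eq_add,
      smul_add, add_comm]
  simp only [Finset.mem_product, Finset.mem_Icc]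
  refine ⟨⟨?_, ?_⟩, ?_, ?_⟩ <;> by_contra hlt
  · refine tele (fun _ => 0) (fun a b ha hb => ?_)
    have e1 : ¬ h a ≤ τ := by omega
    have e2 : ¬ h b ≤ τ := by omega
    simp [chi, e1, e2]
  · refine tele (fun _ => 0) (fun a b ha hb => ?_)
    have e1 : h a ≤ τ := by omega
    have e2 : h b ≤ τ := by omega
    simp [chi, e1, e2, CharTwo.add_self_eq_zero]
  · refine tele (fun a => if h a ≤ τ then 1 else 0) (fun a b ha hb => ?_)
    have e1 : t < f a := by omega
    have e2 : t < f b := by omega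
    simp [chi, e1, e2]
  · refine tele (fun _ => 0) (fun a b ha hb => ?_)
    have e1 : ¬ t < f a := by omega
    simp [chi, e1]

theorem thin_area (hgen : Subgroup.closure (Set.range gen) = ⊤) {C ρ : ℕ}
    (H : HomFill gen C ρ) :
    AreaBound (mulCayley (Set.range gen)) ((2 * ρ + 3) * (2 * ρ + 3) * C) := by
  classical
  intro h f hh hf v w Q hQ
  have hc := thin_connected gen hgen
  obtain ⟨L, h1, h2, h3⟩ := thin_walk gen v w
  obtain ⟨T, z, a1, a2, a3, a4⟩ := H L (by simpa using h2)
  have lip : ∀ k : G → ℕ, (∀ a b, (mulCayley (Set.range gen)).Adj a b → k a ≤ k b + 1) →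
      ∀ t ∈ T, ∀ x ∈ (z t).support, ∀ a, a = x.1 ∨ a = x.1 * gen x.2 →
        k (v * a) ≤ k (v * t) + (ρ + 1) ∧ k (v * t) ≤ k (v * a) + (ρ + 1) := by
    intro k hk t ht x hx a ha
    have b0 : ∀ a b, (mulCayley (Set.range gen)).Adj a b → k (v * a) ≤ k (v * b) + 1 :=
      fun a b hab => hk _ _ (mulCayley_adj_mul_iff_right.2 hab)
    have b1 := thin_lip hc b0 a t
    have b2 := thin_lip hc b0 t a
    have b3 := a2 t ht x hx
    have b4 : (mulCayley (Set.range gen)).dist t a ≤ ρ + 1 := by
      rcases ha with rfl | rfl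
      · omega
      · by_cases e : x.1 = x.1 * gen x.2
        · rw [← e]
          omega
        · have b5 := hc.dist_triangle (u := t) (v := x.1) (w := x.1 * gen x.2)
          have b6 : (mulCayley (Set.range gen)).Adj x.1 (x.1 * gen x.2) :=
            (mulCayley_adj' _ _ _).2 ⟨e, gen x.2, ⟨x.2, rfl⟩, Or.inl rfl⟩
          rw [dist_eq_one_iff_adj.2 b6] at b5
          omega
    rw [SimpleGraph.dist_comm] at b1
    omega
  have sub : Q ⊆ (T.filter fun t => z t ≠ 0).biUnion fun t =>
      Finset.Icc (h (v * t) - (ρ + 1)) (h (v * t) + (ρ + 1)) ×ˢ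
        Finset.Icc (f (v * t) - (ρ + 1)) (f (v * t) + (ρ + 1)) := by
    intro q hq
    have b1 := hQ q hq
    rw [h3 _ (fun x y => by unfold chi; simp only [and_comm, add_comm]), inv_mul_cancel, ← a4,
      map_sum] at b1
    obtain ⟨t, ht, b2⟩ := Finset.exists_ne_zero_of_sum_ne_zero b1
    refine Finset.mem_biUnion.2 ⟨t, Finset.mem_filter.2 ⟨ht, fun e => b2 (by rw [e, map_zero])⟩, ?_⟩
    exact thin_box gen (fun x => h (v * x)) (fun x => f (v * x)) q.1 q.2 (ρ + 1) t (z t) (a1 t ht)
      (fun x hx a ha => ⟨lip h hh t ht x hx a ha, lip f hf t ht x hx a ha⟩) b2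
  refine (Finset.card_le_card sub).trans (Finset.card_biUnion_le.trans ?_)
  rw [mul_assoc _ C, ← h1]
  refine le_trans ?_ (Nat.mul_le_mul_left _ a3)
  rw [Finset.mul_sum, Finset.sum_filter]
  refine Finset.sum_le_sum fun t _ => ?_
  split_ifs with e
  · have b1 : 1 ≤ (z t).support.card := Finset.card_pos.2 (Finsupp.support_nonempty_iff.2 e)
    rw [Finset.card_product, Nat.card_Icc, Nat.card_Icc]
    exact (Nat.mul_le_mul (by omega) (by omega)).trans (Nat.le_mul_of_pos_right _ b1)
  · exact Nat.zero_le _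

/-- A linear homological isoperimetric inequality gives thin triangles. -/
theorem isWordHyperbolic_of_homFill {G S : Type} [Group G] [Fintype S] (gen : S → G)
    (hgen : Subgroup.closure (Set.range gen) = ⊤) {C ρ : ℕ} (h : HomFill gen C ρ) :
    IsWordHyperbolic G := by
  classical
  have e : ((Finset.univ.image gen : Finset G) : Set G) = Set.range gen := by simp
  have key := slim_of_area (thin_connected gen hgen) (thin_area gen hgen h)
  refine ⟨Finset.univ.image gen, by rw [e, hgen], ?_⟩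
  rw [e]
  exact ⟨_, fun a b c p q r hp hq hr => ⟨key _ _ _ _ p q r hp hq hr le_rfl,
    key _ _ _ _ q r p hq hr hp le_rfl, key _ _ _ _ r p q hr hp hq le_rfl⟩⟩

end Vale.Agent.Kap
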